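import Vale.Agent.P233.Gig.IfD
import Vale.Agent.P233.H589.Lat

/-! P233, part D: elementary facts about `dp m p R` (helper950). -/

set_option linter.all false

open MeasureTheory Filter Topology Set
open scoped ENNReal NNReal

universe u

namespace Vale.Agent.P233.PD

variable {M : Type u} [MetricSpace M] [MeasurableSpace M] [BorelSpace M] {m : Measure M}

theorem dtr_lip (p : M) (R : ℝ) : LipschitzWith 1 (dtr p R) := by
  refine LipschitzWith.of_dist_le_mul fun x y => ?_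
  rw [Real.dist_eq]
  have h1 := abs_min_sub_min_le_max (dist p x) R (dist p y) R
  have h2 : |dist p x - dist p y| ≤ dist x y := by
    rw [dist_comm p x, dist_comm p y]
    exact abs_dist_sub_le x y p
  have h3 : dtr p R x - dtr p R y = min (dist p x) R - min (dist p y) R := by
    simp only [dtr]; ring
  rw [h3]
  simp only [NNReal.coe_one, one_mul]
  refine h1.trans ?_
  simp only [sub_self, abs_zero]
  exact max_le h2 dist_nonneg

theorem dtr_sub_le (p q : M) (R : ℝ) (x : M) : |dtr q R x - dtr p R x| ≤ dist q p := by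
  have h1 := abs_min_sub_min_le_max (dist q x) R (dist p x) R
  have h2 : |dist q x - dist p x| ≤ dist q p := abs_dist_sub_le q p x
  have h3 : dtr q R x - dtr p R x = min (dist q x) R - min (dist p x) R := by
    simp only [dtr]; ring
  rw [h3]
  refine h1.trans ?_
  simp only [sub_self, abs_zero]
  exact max_le h2 dist_nonneg

theorem dtr_zero {p : M} {R : ℝ} {x : M} (h : x ∉ Metric.ball p R) : dtr p R x = 0 := by
  rw [Metric.mem_ball, not_lt, dist_comm] at h
  simp only [dtr, min_eq_right h, sub_self]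

theorem cl_ae {f : M → ℝ} (hf : AEStronglyMeasurable f m) : cl m f =ᵐ[m] f := by
  unfold cl
  rw [dif_pos hf]
  exact AEEqFun.coeFn_mk f hf

variable [SecondCountableTopology M]

theorem dp_ae (p : M) (R : ℝ) : dp m p R =ᵐ[m] dtr p R :=
  cl_ae ((dtr_lip p R).continuous.aestronglyMeasurable)

theorem dp_mem (hfin : ∀ (x : M) (r : ℝ), m (Metric.ball x r) < ∞) (p : M) (R : ℝ) :
    dp m p R ∈ (sob m).W := by
  rw [mem_sob_iff]
  have h1 : Met.W12 m (dtr p R) := ⟨_, (Met.good_of_bounded_support hfin (dtr_lip p R)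
    (x₀ := p) (R := R) fun x hx => dtr_zero hx).rSlope⟩
  exact h1.congr (dp_ae p R).symm

theorem Γ_le_of_lip (hfin : ∀ (x : M) (r : ℝ), m (Metric.ball x r) < ∞) {f : M →ₘ[m] ℝ}
    (hf : f ∈ (sob m).W) {u : M → ℝ} (hfu : f =ᵐ[m] u) {K : ℝ≥0} (hu : LipschitzWith K u) :
    ∀ᵐ x ∂m, (sob m).Γ f f x ≤ (K : ℝ) ^ 2 := by
  have h1 := le_iff_ae.1 (slope_le_of_lipschitz hfin hf hfu hu)
  filter_upwards [h1, sob_Γ_self_ae hf, slope_ae hf, smul_ae (m := m) (1 : M →ₘ[m] ℝ) (K : ℝ),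
    one_ae (m := m), (Met.W12.mslope_nonneg (mem_sob_iff.1 hf))] with x a1 a2 a3 a4 a5 a6
  rw [a3, a4, a5, mul_one] at a1
  rw [a2]
  exact pow_le_pow_left₀ a6 a1 2

theorem dp_Γ_le (hfin : ∀ (x : M) (r : ℝ), m (Metric.ball x r) < ∞) (p : M) (R : ℝ) :
    ∀ᵐ x ∂m, (sob m).Γ (dp m p R) (dp m p R) x ≤ 1 := by
  have h := Γ_le_of_lip hfin (dp_mem hfin p R) (dp_ae p R) (dtr_lip p R)
  simpa using h

/-- `∇ dp` vanishes outside the ball -/
theorem dp_Γ_off (hfin : ∀ (x : M) (r : ℝ), m (Metric.ball x r) < ∞) (hC : IsDir (sob m))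
    (p : M) (R : ℝ) {g : M →ₘ[m] ℝ} (hg : g ∈ (sob m).W) :
    ∀ᵐ x ∂m, x ∉ Metric.ball p R → (sob m).Γ (dp m p R) g x = 0 := by
  filter_upwards [hC.Γ_ae_zero (dp_mem hfin p R) hg, dp_ae (m := m) p R] with x h1 h2 hx
  exact h1 (by rw [h2, dtr_zero hx])

/-- locality: the radius does not matter -/
theorem dp_Γ_local (hfin : ∀ (x : M) (r : ℝ), m (Metric.ball x r) < ∞) (hC : IsDir (sob m))
    (p : M) (R R' : ℝ) {g : M →ₘ[m] ℝ} (hg : g ∈ (sob m).W) :
    ∀ᵐ x ∂m, dist p x < R → dist p x < R' →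
      (sob m).Γ g (dp m p R) x = (sob m).Γ g (dp m p R') x := by
  have h1 := hC.Γ_level (hC.sub_mem (dp_mem hfin p R) (dp_mem hfin p R')) hg (R' - R)
  have h2 := hC.Γ_sub_left (dp_mem hfin p R) (dp_mem hfin p R') hg
  have h3 := hC.symm _ (dp_mem hfin p R) g hg
  have h4 := hC.symm _ (dp_mem hfin p R') g hg
  filter_upwards [h1, dp_ae (m := m) p R, dp_ae (m := m) p R', sub_ae (dp m p R) (dp m p R'),
    eq_iff_ae.1 h2, sub_ae ((sob m).Γ (dp m p R) g) ((sob m).Γ (dp m p R') g)]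
    with x a1 a2 a3 a4 a5 a6 hx hx'
  have a7 := a1 (by rw [a4, a2, a3]; simp only [dtr, min_eq_left hx.le, min_eq_left hx'.le]; ring)
  rw [a5, a6, h3, h4] at a7
  linarith

end Vale.Agent.P233.PD
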