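import Vale.Agent.P233.Bd3.B1

/-! P233: weak continuity of `f ↦ ∫_S Γ h f` along bounded sequences (helper950). -/

set_option linter.all false

open MeasureTheory Filter Topology Set
open scoped ENNReal NNReal

namespace Vale.Agent.P233

variable {M : Type*} [MeasurableSpace M] {m : Measure M} {C : Calc m}

/-- `|∫ f g| ≤ K ∫ |g|` -/
theorem I_mul_abs_le {f g : M →ₘ[m] ℝ} (hg : MemLp g 1 m) {K : ℝ} (hK : ∀ᵐ x ∂m, |f x| ≤ K) :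
    |I (f * g)| ≤ K * ∫ x, |g x| ∂m := by
  unfold I
  rw [← integral_const_mul]
  refine (abs_integral_le_integral_abs).trans (integral_mono_ae ?_ ?_ ?_)
  · have h1 : MemLp (f * g : M →ₘ[m] ℝ) 1 m := mem_mul_top (mem_top_iff.2 ⟨K, hK⟩) hg
    exact (int_of_mem h1).abs
  · exact ((int_of_mem hg).abs).const_mul K
  · filter_upwards [hK, mul_ae f g] with x h1 h2
    rw [h2, abs_mul]
    exact mul_le_mul_of_nonneg_right h1 (abs_nonneg _)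

namespace IsDir

variable (hC : IsDir C)
include hC

theorem ibp_lap {a l φ e : M →ₘ[m] ℝ} (ha : C.IsLap a l) (hφ : φ ∈ C.A) (he : e ∈ C.A) :
    I (φ * C.Γ a e) = -I (e * (l * φ)) - I (e * C.Γ a φ) := by
  have h1 := ha.2.2 (φ * e) (hC.mul_mem_A hφ he).1
  have h2 := hC.Γ_mul_right hφ he ha.1
  have h3 : MemLp (φ * C.Γ a e : M →ₘ[m] ℝ) 1 m := mem_mul_top hφ.2 (hC.Γ_mem1 ha.1 he.1)
  have h4 : MemLp (e * C.Γ a φ : M →ₘ[m] ℝ) 1 m := mem_mul_top he.2 (hC.Γ_mem1 ha.1 hφ.1)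
  have h5 : I (C.Γ a (φ * e)) = -I (l * (φ * e)) := h1
  rw [h2, I_add h3 h4] at h5
  have h6 : l * (φ * e) = e * (l * φ) := by ring
  rw [h6] at h5
  linarith

theorem weak_Γ {h : M →ₘ[m] ℝ} (hh : h ∈ C.W) {χ : M →ₘ[m] ℝ} (hχ : MemLp χ 2 m)
    {Kχ : ℝ} (hχb : ∀ᵐ x ∂m, |χ x| ≤ Kχ) {e : ℕ → M →ₘ[m] ℝ} (he : ∀ k, e k ∈ C.W) {E0 L : ℝ}
    (hE : ∀ᶠ k in atTop, I (C.Γ (e k) (e k)) ≤ E0)
    (hL : ∀ k, ∀ᵐ x ∂m, C.Γ (e k) (e k) x ≤ L) {δ : ℕ → ℝ} (hδ : Tendsto δ atTop (𝓝 0))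
    (hb : ∀ k, ∀ᵐ x ∂m, |e k x| ≤ δ k) :
    Tendsto (fun k => I (χ * C.Γ h (e k))) atTop (𝓝 0) := by
  have hKχ : 0 ≤ |Kχ| := abs_nonneg _
  have heA : ∀ k, e k ∈ C.A := fun k => ⟨he k, mem_top_iff.2 ⟨_, hb k⟩⟩
  have hLt : ∀ k, MemLp (C.Γ (e k) (e k)) ∞ m := fun k => by
    refine mem_top_iff.2 ⟨L, ?_⟩
    filter_upwards [hL k, hC.Γ_nonneg_ae (he k)] with x h1 h2
    rwa [abs_of_nonneg h2]
  rw [Metric.tendsto_atTop]
  intro ε hε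
  -- choose `h'`
  have hEpos : 0 ≤ |E0| := abs_nonneg _
  obtain ⟨n, hn⟩ : ∃ n : ℕ, |Kχ| * (Real.sqrt (I (C.Γ (h - C.J ((n : ℝ) + 1)⁻¹ h)
      (h - C.J ((n : ℝ) + 1)⁻¹ h))) * Real.sqrt |E0|) < ε / 3 := by
    have h1 := hC.J_tendsto_W hh
    have h2 : Tendsto (fun n : ℕ => I (C.Γ (h - C.J ((n : ℝ) + 1)⁻¹ h)
      (h - C.J ((n : ℝ) + 1)⁻¹ h))) atTop (𝓝 0) := by
      refine squeeze_zero (fun n => hC.E_nonneg (hC.sub_mem hh (hC.J_mem (by positivity)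
        (hC.memLp _ hh)))) (fun n => ?_) h1
      rw [hC.nrm2_sub_comm (hC.J_mem (by positivity) (hC.memLp _ hh)) hh]
      exact hC.E_le_nrm2 _
    have h3 : Tendsto (fun n : ℕ => |Kχ| * (Real.sqrt (I (C.Γ (h - C.J ((n : ℝ) + 1)⁻¹ h)
      (h - C.J ((n : ℝ) + 1)⁻¹ h))) * Real.sqrt |E0|)) atTop (𝓝 0) := by
      have := ((h2.sqrt.mul_const (Real.sqrt |E0|)).const_mul |Kχ|)
      simpa using this
    exact ((tendsto_order.1 h3).2 (ε / 3) (by positivity)).exists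
  set h' := C.J ((n : ℝ) + 1)⁻¹ h with hh'
  have hl : C.IsLap h' ((((n : ℝ) + 1)⁻¹)⁻¹ • (h' - h)) :=
    hC.J_isLap (by positivity) (hC.memLp _ hh)
  set l := (((n : ℝ) + 1)⁻¹)⁻¹ • (h' - h) with hldef
  have hh'W : h' ∈ C.W := hl.1
  -- choose `φ`
  obtain ⟨k, hk⟩ : ∃ k : ℕ, Real.sqrt (I ((χ - C.J ((k : ℝ) + 1)⁻¹ χ) ^ 2)) *
      Real.sqrt (|L| * I (C.Γ h' h')) < ε / 3 := by
    have h1 := hC.J_tendsto_L2 hχ
    have h2 : Tendsto (fun k : ℕ => I ((χ - C.J ((k : ℝ) + 1)⁻¹ χ) ^ 2)) atTop (𝓝 0) := by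
      refine h1.congr fun k => ?_
      congr 1; ring
    have h3 : Tendsto (fun k : ℕ => Real.sqrt (I ((χ - C.J ((k : ℝ) + 1)⁻¹ χ) ^ 2)) *
      Real.sqrt (|L| * I (C.Γ h' h'))) atTop (𝓝 0) := by
      have := h2.sqrt.mul_const (Real.sqrt (|L| * I (C.Γ h' h')))
      simpa using this
    exact ((tendsto_order.1 h3).2 (ε / 3) (by positivity)).exists
  set φ := C.J ((k : ℝ) + 1)⁻¹ χ with hφ
  have hφW : φ ∈ C.W := hC.J_mem (by positivity) hχ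
  have hφb : ∀ᵐ x ∂m, |φ x| ≤ Kχ := hC.J_bdd (by positivity) hχ hχb
  have hφA : φ ∈ C.A := ⟨hφW, mem_top_iff.2 ⟨_, hφb⟩⟩
  -- the third term
  have hlφ : MemLp (l * φ : M →ₘ[m] ℝ) 1 m := mem_mul_22 hl.2.1 (hC.memLp _ hφW)
  have hΓφ : MemLp (C.Γ h' φ) 1 m := hC.Γ_mem1 hh'W hφW
  obtain ⟨N1, hN1⟩ := (eventually_atTop.1 hE)
  have h6 : Tendsto (fun k => δ k * (∫ x, |(l * φ : M →ₘ[m] ℝ) x| ∂m) +
      δ k * ∫ x, |C.Γ h' φ x| ∂m) atTop (𝓝 0) := by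
    have := (hδ.mul_const (∫ x, |(l * φ : M →ₘ[m] ℝ) x| ∂m)).add
      (hδ.mul_const (∫ x, |C.Γ h' φ x| ∂m))
    simpa using this
  obtain ⟨N2, hN2⟩ := (eventually_atTop.1 ((tendsto_order.1 h6).2 (ε / 3) (by positivity)))
  refine ⟨max N1 N2, fun j hj => ?_⟩
  have hj1 := hN1 j (le_trans (le_max_left _ _) hj)
  have hj2 := hN2 j (le_trans (le_max_right _ _) hj)
  rw [Real.dist_eq, sub_zero]
  have hχt : MemLp χ ∞ m := mem_top_iff.2 ⟨_, hχb⟩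
  -- splitting
  have m1 : MemLp (χ * C.Γ (h - h') (e j) : M →ₘ[m] ℝ) 1 m :=
    mem_mul_top hχt (hC.Γ_mem1 (hC.sub_mem hh hh'W) (he j))
  have hΓ2 : MemLp (C.Γ h' (e j)) 2 m := by
    rw [hC.symm _ hh'W _ (he j)]
    exact hC.Γ_mem2 (he j) (hLt j) hh'W
  have m2 : MemLp ((χ - φ) * C.Γ h' (e j) : M →ₘ[m] ℝ) 1 m :=
    mem_mul_22 (mem_sub hχ (hC.memLp _ hφW)) hΓ2
  have m3 : MemLp (φ * C.Γ h' (e j) : M →ₘ[m] ℝ) 1 m :=
    mem_mul_top hφA.2 (hC.Γ_mem1 hh'W (he j))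
  have hsplit : I (χ * C.Γ h (e j)) = I (χ * C.Γ (h - h') (e j)) + I ((χ - φ) * C.Γ h' (e j))
      + I (φ * C.Γ h' (e j)) := by
    rw [← I_add m1 m2, ← I_add (mem_add m1 m2) m3, hC.Γ_sub_left hh hh'W (he j)]
    congr 1; ring
  -- first term
  have t1 : |I (χ * C.Γ (h - h') (e j))| ≤ |Kχ| * (Real.sqrt (I (C.Γ (h - h') (h - h'))) *
      Real.sqrt |E0|) := by
    refine (I_mul_abs_le (hC.Γ_mem1 (hC.sub_mem hh hh'W) (he j)) (K := |Kχ|) ?_).trans ?_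
    · filter_upwards [hχb] with x hx
      exact hx.trans (le_abs_self _)
    · refine mul_le_mul_of_nonneg_left ?_ hKχ
      refine (hC.int_abs_Γ_le (hC.sub_mem hh hh'W) (he j)).trans ?_
      exact mul_le_mul_of_nonneg_left (Real.sqrt_le_sqrt (hj1.trans (le_abs_self _)))
        (Real.sqrt_nonneg _)
  have t2 : |I ((χ - φ) * C.Γ h' (e j))| ≤ Real.sqrt (I ((χ - φ) ^ 2)) *
      Real.sqrt (|L| * I (C.Γ h' h')) := by
    refine (I_abs_le (mem_sub hχ (hC.memLp _ hφW)) hΓ2).trans ?_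
    refine mul_le_mul_of_nonneg_left (Real.sqrt_le_sqrt ?_) (Real.sqrt_nonneg _)
    have hm1 : MemLp (|L| • C.Γ h' h' : M →ₘ[m] ℝ) 1 m := mem_smul _ (hC.mem1 _ hh'W)
    rw [← I_smul]
    refine I_mono (mem_sq hΓ2) hm1 (le_iff_ae.2 ?_)
    filter_upwards [hL j, hC.Γ_cs_ae hh'W (he j), sq_ae (C.Γ h' (e j)),
      smul_ae (C.Γ h' h') |L|, hC.Γ_nonneg_ae hh'W] with x a1 a2 a3 a4 a5
    rw [a3, a4]
    refine a2.trans ?_
    rw [mul_comm]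
    exact mul_le_mul_of_nonneg_right (a1.trans (le_abs_self _)) a5
  have t3 : |I (φ * C.Γ h' (e j))| ≤ δ j * (∫ x, |(l * φ : M →ₘ[m] ℝ) x| ∂m) +
      δ j * ∫ x, |C.Γ h' φ x| ∂m := by
    rw [hC.ibp_lap hl hφA (heA j)]
    have a1 := I_mul_abs_le hlφ (hb j)
    have a2 := I_mul_abs_le hΓφ (hb j)
    have a3 : |-I (e j * (l * φ)) - I (e j * C.Γ h' φ)| ≤ |I (e j * (l * φ))| +
        |I (e j * C.Γ h' φ)| := by
      have := abs_add_le (-I (e j * (l * φ))) (-I (e j * C.Γ h' φ))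
      rw [abs_neg, abs_neg] at this
      simpa [sub_eq_add_neg] using this
    linarith
  rw [hsplit]
  have t4 := abs_add_three (I (χ * C.Γ (h - h') (e j))) (I ((χ - φ) * C.Γ h' (e j)))
    (I (φ * C.Γ h' (e j)))
  linarith

end IsDir

end Vale.Agent.P233
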