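import Vale.Agent.P233.H950.Dp
import Vale.Agent.P233.H950.Weak
import Mathlib.MeasureTheory.Covering.DensityTheorem
import Mathlib.MeasureTheory.Function.Floor

/-! P233, block D0b: jointly measurable versions of `(p,y) ↦ ⟨∇h,∇d_p⟩(y)` (helper950). -/

set_option linter.all false

open MeasureTheory Filter Topology Set
open scoped ENNReal NNReal

universe u

namespace Vale.Agent.P233.PD

variable {M : Type u} [MetricSpace M] [MeasurableSpace M] [BorelSpace M] {m : Measure M}
  [SecondCountableTopology M]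

theorem dp_E_le (hfin : ∀ (x : M) (r : ℝ), m (Metric.ball x r) < ∞) (hC : IsDir (sob m))
    (p q : M) (R : ℝ) (hq : dist q p < 1) :
    I ((sob m).Γ (dp m q R) (dp m q R)) ≤ m.real (Metric.ball p (R + 1)) := by
  have hq' : Metric.ball q R ⊆ Metric.ball p (R + 1) :=
    Metric.ball_subset_ball' (by linarith)
  have h1 : I ((sob m).Γ (dp m q R) (dp m q R)) ≤
      ∫ x, (Metric.ball p (R + 1)).indicator (fun _ => (1 : ℝ)) x ∂m := by
    refine integral_mono_ae (int_of_mem (hC.mem1 _ (dp_mem hfin q R)))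
      ((integrable_indicator_iff Metric.isOpen_ball.measurableSet).2
        (integrableOn_const (hs := (hfin _ _).ne))) ?_
    filter_upwards [dp_Γ_le hfin q R, dp_Γ_off hfin hC q R (dp_mem hfin q R)] with x a1 a2
    by_cases hx : x ∈ Metric.ball p (R + 1)
    · rw [indicator_of_mem hx]; exact a1
    · rw [indicator_of_notMem hx, a2 fun h => hx (hq' h)]
  rw [integral_indicator Metric.isOpen_ball.measurableSet, setIntegral_const] at h1
  simpa using h1

/-- continuity in the centre of the integrals of `⟨∇h,∇d_p⟩` over a set -/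
theorem continuous_int (hfin : ∀ (x : M) (r : ℝ), m (Metric.ball x r) < ∞) (hC : IsDir (sob m))
    {h : M →ₘ[m] ℝ} (hh : h ∈ (sob m).W) {S : Set M} (hS : MeasurableSet S) (hSm : m S ≠ ∞)
    (R : ℝ) : Continuous fun p => ∫ x in S, (sob m).Γ h (dp m p R) x ∂m := by
  -- the class of the indicator
  have hχi : MemLp (S.indicator fun _ => (1 : ℝ)) 2 m :=
    memLp_indicator_const 2 hS 1 (Or.inr hSm)
  set χ : M →ₘ[m] ℝ := AEEqFun.mk _ hχi.1 with hχ
  have hχae : χ =ᵐ[m] S.indicator fun _ => (1 : ℝ) := AEEqFun.coeFn_mk _ _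
  have hχ2 : MemLp χ 2 m := hχi.ae_eq hχae.symm
  have hχb : ∀ᵐ x ∂m, |χ x| ≤ (1 : ℝ) := by
    filter_upwards [hχae] with x hx
    rw [hx]
    by_cases hxS : x ∈ S
    · simp [hxS]
    · simp [hxS]
  have hint : ∀ F : M →ₘ[m] ℝ, ∫ x in S, F x ∂m = I (χ * F) := by
    intro F
    rw [← integral_indicator hS]
    refine integral_congr_ae ?_
    filter_upwards [hχae, mul_ae χ F] with x a1 a2
    rw [a2, a1]
    by_cases hxS : x ∈ S
    · simp [hxS]
    · simp [hxS]
  rw [continuous_iff_continuousAt]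
  intro p
  refine tendsto_of_seq_tendsto fun q hq => ?_
  have he : ∀ k, dp m (q k) R - dp m p R ∈ (sob m).W := fun k =>
    hC.sub_mem (dp_mem hfin _ R) (dp_mem hfin _ R)
  have hd : Tendsto (fun k => dist (q k) p) atTop (𝓝 0) := tendsto_iff_dist_tendsto_zero.1 hq
  have key := hC.weak_Γ hh hχ2 hχb (e := fun k => dp m (q k) R - dp m p R) he
    (E0 := 4 * m.real (Metric.ball p (R + 1))) (L := 4) ?_ ?_ (δ := fun k => dist (q k) p) hd ?_
  · have h2 : Tendsto (fun k => I (χ * (sob m).Γ h (dp m (q k) R - dp m p R)) +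
        ∫ x in S, (sob m).Γ h (dp m p R) x ∂m) atTop
        (𝓝 (0 + ∫ x in S, (sob m).Γ h (dp m p R) x ∂m)) := key.add_const _
    rw [zero_add] at h2
    refine h2.congr fun k => ?_
    have hχt : MemLp χ ∞ m := mem_top_iff.2 ⟨_, hχb⟩
    rw [hC.Γ_sub_right hh (dp_mem hfin _ R) (dp_mem hfin _ R)]
    have e1 : χ * ((sob m).Γ h (dp m (q k) R) - (sob m).Γ h (dp m p R)) =
        χ * (sob m).Γ h (dp m (q k) R) - χ * (sob m).Γ h (dp m p R) := by ring
    rw [e1, I_sub (mem_mul_top hχt (hC.Γ_mem1 hh (dp_mem hfin _ R)))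
      (mem_mul_top hχt (hC.Γ_mem1 hh (dp_mem hfin _ R))), hint, Function.comp_apply, hint]
    ring
  · filter_upwards [(tendsto_order.1 hd).2 1 one_pos] with k hk
    have a1 := hC.E_add_le (dp_mem hfin (q k) R) (hC.neg_mem (dp_mem hfin p R))
    rw [← sub_eq_add_neg, hC.E_neg (dp_mem hfin p R)] at a1
    have a2 := dp_E_le hfin hC p (q k) R hk
    have a3 := dp_E_le hfin hC p p R (by simp)
    linarith
  · intro k
    have hlip : LipschitzWith 2 fun x => dtr (q k) R x - dtr p R x := by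
      have := (dtr_lip (q k) R).sub (dtr_lip p R)
      have h2 : (1 : ℝ≥0) + 1 = 2 := by norm_num
      rwa [h2] at this
    have hae : ⇑(dp m (q k) R - dp m p R) =ᵐ[m] fun x => dtr (q k) R x - dtr p R x := by
      filter_upwards [sub_ae (dp m (q k) R) (dp m p R), dp_ae (m := m) (q k) R,
        dp_ae (m := m) p R] with x b1 b2 b3
      rw [b1, b2, b3]
    have := Γ_le_of_lip hfin (he k) hae hlip
    filter_upwards [this] with x hx
    norm_num at hx
    exact hx
  · intro k
    filter_upwards [sub_ae (dp m (q k) R) (dp m p R), dp_ae (m := m) (q k) R,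
        dp_ae (m := m) p R] with x b1 b2 b3
    rw [b1, b2, b3]
    exact dtr_sub_le p (q k) R x

/-- integrals over balls, jointly in the two variables -/
theorem measurable_int (hfin : ∀ (x : M) (r : ℝ), m (Metric.ball x r) < ∞) (hC : IsDir (sob m))
    {h : M →ₘ[m] ℝ} (hh : h ∈ (sob m).W) (R r : ℝ) :
    Measurable fun z : M × M => ∫ x in Metric.closedBall z.2 r, (sob m).Γ h (dp m z.1 R) x ∂m := by
  haveI : SigmaFinite m := sigmaFinite_of_ball hfin
  have hcb : ∀ y : M, m (Metric.closedBall y r) ≠ ∞ := fun y =>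
    ((measure_mono (Metric.closedBall_subset_ball (by linarith))).trans_lt (hfin y (r + 1))).ne
  suffices H : ∀ p, Measurable fun y : M =>
      ∫ x in Metric.closedBall y r, (sob m).Γ h (dp m p R) x ∂m by
    have h1 : Measurable (Function.uncurry
        fun (p : M) (y : M) => ∫ x in Metric.closedBall y r, (sob m).Γ h (dp m p R) x ∂m) :=
      measurable_uncurry_of_continuous_of_measurable
        (fun y => continuous_int hfin hC hh Metric.isClosed_closedBall.measurableSet (hcb y) R) H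
    exact h1
  intro p
  have hset : MeasurableSet {z : M × M | dist z.2 z.1 ≤ r} :=
    (isClosed_le (by fun_prop) continuous_const).measurableSet
  have h2 : StronglyMeasurable fun z : M × M =>
      {z : M × M | dist z.2 z.1 ≤ r}.indicator (fun z => (sob m).Γ h (dp m p R) z.2) z :=
    ((AEEqFun.stronglyMeasurable _).comp_measurable measurable_snd).indicator hset
  have h3 := (h2.integral_prod_right' (ν := m)).measurable
  convert h3 using 2 with y
  rw [← integral_indicator Metric.isClosed_closedBall.measurableSet]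
  rfl

/-- the averages -/
noncomputable def av (m : Measure M) (h : M →ₘ[m] ℝ) (R : ℝ) (k : ℕ) (p y : M) : ℝ :=
  ⨍ x in Metric.closedBall y ((k : ℝ) + 1)⁻¹, (sob m).Γ h (dp m p R) x ∂m

theorem measurable_av (hfin : ∀ (x : M) (r : ℝ), m (Metric.ball x r) < ∞) (hC : IsDir (sob m))
    {h : M →ₘ[m] ℝ} (hh : h ∈ (sob m).W) (R : ℝ) (k : ℕ) :
    Measurable fun z : M × M => av m h R k z.1 z.2 := by
  haveI : SigmaFinite m := sigmaFinite_of_ball hfin
  unfold av
  simp_rw [setAverage_eq, smul_eq_mul]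
  refine Measurable.mul ?_ (measurable_int hfin hC hh R _)
  have hset : MeasurableSet {z : M × M | dist z.2 z.1 ≤ ((k : ℝ) + 1)⁻¹} :=
    (isClosed_le (by fun_prop) continuous_const).measurableSet
  have h1 : Measurable fun y : M => m (Metric.closedBall y ((k : ℝ) + 1)⁻¹) :=
    measurable_measure_prodMk_left (ν := m) hset
  have h2 : Measurable fun y : M => (m.real (Metric.closedBall y ((k : ℝ) + 1)⁻¹))⁻¹ :=
    (h1.ennreal_toReal).inv
  exact h2.comp measurable_snd

/-- version for one radius -/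
theorem exists_ver (hfin : ∀ (x : M) (r : ℝ), m (Metric.ball x r) < ∞) (hC : IsDir (sob m))
    [IsUnifLocDoublingMeasure m] [IsLocallyFiniteMeasure m]
    {h : M →ₘ[m] ℝ} (hh : h ∈ (sob m).W) (R : ℝ) :
    ∃ g : M → M → ℝ, (Measurable fun z : M × M => g z.1 z.2) ∧
      ∀ p, ∀ᵐ y ∂m, g p y = (sob m).Γ h (dp m p R) y := by
  refine ⟨fun p y => limsup (fun k => av m h R k p y) atTop,
    Measurable.limsup fun k => measurable_av hfin hC hh R k, fun p => ?_⟩
  have hint : LocallyIntegrable ((sob m).Γ h (dp m p R)) m :=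
    (int_of_mem (hC.Γ_mem1 hh (dp_mem hfin p R))).locallyIntegrable
  filter_upwards [IsUnifLocDoublingMeasure.ae_tendsto_average m hint 1] with y hy
  have h1 : Tendsto (fun k : ℕ => ((k : ℝ) + 1)⁻¹) atTop (𝓝[>] 0) :=
    tendsto_nhdsWithin_iff.2 ⟨tendsto_inv_succ, Eventually.of_forall fun k => by
      simp only [mem_Ioi]; positivity⟩
  have h2 := hy (w := fun _ : ℕ => y) (δ := fun k : ℕ => ((k : ℝ) + 1)⁻¹) h1
    (Eventually.of_forall fun k => Metric.mem_closedBall_self (by positivity))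
  exact h2.limsup_eq

theorem hasVer (hfin : ∀ (x : M) (r : ℝ), m (Metric.ball x r) < ∞) (hC : IsDir (sob m))
    [IsUnifLocDoublingMeasure m] [IsLocallyFiniteMeasure m] : HasVer m := by
  intro h hh
  choose g hg1 hg2 using fun R : ℕ => exists_ver hfin hC hh (R : ℝ)
  refine ⟨fun p y => g (⌊dist p y⌋₊ + 1) p y, ?_, fun p R => ?_⟩
  · have h1 : Measurable fun w : ℕ × (M × M) => g w.1 w.2.1 w.2.2 :=
      measurable_from_prod_countable_right fun R => hg1 R
    have h2 : Measurable fun z : M × M => ((⌊dist z.1 z.2⌋₊ + 1, z) : ℕ × (M × M)) := by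
      refine Measurable.prodMk ?_ measurable_id
      exact (measurable_dist.nat_floor).add_const 1
    exact h1.comp h2
  · have h1 : ∀ᵐ y ∂m, ∀ k : ℕ, g k p y = (sob m).Γ h (dp m p k) y :=
      ae_all_iff.2 fun k => hg2 k p
    have h2 : ∀ᵐ y ∂m, ∀ k : ℕ, dist p y < k → dist p y < R →
        (sob m).Γ h (dp m p k) y = (sob m).Γ h (dp m p R) y :=
      ae_all_iff.2 fun k => dp_Γ_local hfin hC p k R hh
    filter_upwards [h1, h2] with y a1 a2 hy
    rw [a1]
    refine a2 _ ?_ hy
    push_cast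
    exact Nat.lt_floor_add_one _

/-! ### Cauchy–Schwarz for the versions -/

theorem exists_rat_seq (x : ℝ) : ∃ u : ℕ → ℚ, Tendsto (fun n => (u n : ℝ)) atTop (𝓝 x) := by
  obtain ⟨v, hv, hv2⟩ := mem_closure_iff_seq_limit.1 (Rat.denseRange_cast (𝕜 := ℝ) x)
  choose u hu using hv
  exact ⟨u, by simpa only [hu] using hv2⟩

/-- it is enough to check rational coefficients -/
theorem cs_of_rat {w : ℕ → ℝ} {K : ℕ → ℕ → ℝ}
    (h : ∀ (k : ℕ) (c : Fin k → ℚ),
      (∑ i : Fin k, (c i : ℝ) * w i) ^ 2 ≤ ∑ i : Fin k, ∑ j : Fin k, (c i : ℝ) * c j * K i j)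
    (k : ℕ) (c : ℕ → ℝ) :
    (∑ i ∈ Finset.range k, c i * w i) ^ 2 ≤
      ∑ i ∈ Finset.range k, ∑ j ∈ Finset.range k, c i * c j * K i j := by
  choose u hu using fun i => exists_rat_seq (c i)
  have h1 : Tendsto (fun n => (∑ i ∈ Finset.range k, (u i n : ℝ) * w i) ^ 2) atTop
      (𝓝 ((∑ i ∈ Finset.range k, c i * w i) ^ 2)) :=
    (tendsto_finsetSum _ fun i _ => (hu i).mul_const _).pow 2
  have h2 : Tendsto (fun n => ∑ i ∈ Finset.range k, ∑ j ∈ Finset.range k,
      (u i n : ℝ) * u j n * K i j) atTop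
      (𝓝 (∑ i ∈ Finset.range k, ∑ j ∈ Finset.range k, c i * c j * K i j)) :=
    tendsto_finsetSum _ fun i _ => tendsto_finsetSum _ fun j _ => ((hu i).mul (hu j)).mul_const _
  refine le_of_tendsto_of_tendsto' h1 h2 fun n => ?_
  have h3 := h k fun i => u i n
  rw [Finset.sum_range, Finset.sum_range]
  simp_rw [Finset.sum_range]
  exact h3

theorem verCS [SigmaFinite m] (hfin : ∀ (x : M) (r : ℝ), m (Metric.ball x r) < ∞)
    (hC : IsDir (sob m)) : VerCS m := by
  intro f b G g hT
  have hW : ∀ i, f i ∈ (sob m).W := fun i => (hT.lip i).1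
  -- for every centre
  have h1 : ∀ p, ∀ᵐ y ∂m, ∀ (k : ℕ) (c : ℕ → ℝ),
      (∑ i ∈ Finset.range k, c i * g i p y) ^ 2 ≤ qf G k c y := by
    intro p
    let e : ℕ → ℕ → M →ₘ[m] ℝ := fun R => fun i => Nat.casesOn i (dp m p R) f
    have he : ∀ R i, e R i ∈ (sob m).W := by
      intro R i
      cases i with
      | zero => exact dp_mem hfin p R
      | succ i => exact hW i
    have a1 : ∀ᵐ y ∂m, ∀ R : ℕ, PSDK fun i j => (sob m).Γ (e R i) (e R j) y :=
      ae_all_iff.2 fun R => hC.psdk_ae (he R)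
    have a2 : ∀ᵐ y ∂m, ∀ R : ℕ, (sob m).Γ (dp m p R) (dp m p R) y ≤ 1 :=
      ae_all_iff.2 fun R => dp_Γ_le hfin p R
    have a3 : ∀ᵐ y ∂m, ∀ i : ℕ, ∀ R : ℕ, dist p y < R →
        g i p y = (sob m).Γ (f i) (dp m p R) y :=
      ae_all_iff.2 fun i => ae_all_iff.2 fun R => (hT.ver i).2 p R
    have a4 : ∀ᵐ y ∂m, ∀ i j : ℕ, G i j y = (sob m).Γ (f i) (f j) y :=
      ae_all_iff.2 fun i => ae_all_iff.2 fun j => hT.gram i j
    have a5 : ∀ᵐ y ∂m, ∀ i : ℕ, ∀ R : ℕ,
        (sob m).Γ (f i) (dp m p R) y = (sob m).Γ (dp m p R) (f i) y :=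
      ae_all_iff.2 fun i => ae_all_iff.2 fun R =>
        eq_iff_ae.1 (hC.symm _ (hW i) _ (dp_mem hfin p R))
    filter_upwards [a1, a2, a3, a4, a5] with y b1 b2 b3 b4 b5 k c
    obtain ⟨R, hR⟩ := exists_nat_gt (dist p y)
    have c1 := (b1 R).cs (Finset.image Nat.succ (Finset.range k))
      (fun i => c (i - 1)) 0
    rw [Finset.sum_image (by simp), Finset.sum_image (by simp)] at c1
    have c2 : ∀ i ∈ Finset.range k,
        (∑ j ∈ Finset.image Nat.succ (Finset.range k),
          c (i.succ - 1) * c (j - 1) * (sob m).Γ (e R i.succ) (e R j) y) =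
        ∑ j ∈ Finset.range k, c i * c j * G i j y := by
      intro i _
      rw [Finset.sum_image (by simp)]
      refine Finset.sum_congr rfl fun j _ => ?_
      rw [b4]
      rfl
    rw [Finset.sum_congr rfl c2] at c1
    have c3 : ∑ i ∈ Finset.range k, c (i.succ - 1) * (sob m).Γ (e R 0) (e R i.succ) y =
        ∑ i ∈ Finset.range k, c i * g i p y := by
      refine Finset.sum_congr rfl fun i _ => ?_
      rw [b3 i R hR, b5]
      rfl
    rw [c3] at c1
    have c4 : 0 ≤ qf G k c y := by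
      have d1 := (b1 R).nonneg (Finset.image Nat.succ (Finset.range k)) (fun i => c (i - 1))
      rw [Finset.sum_image (by simp), Finset.sum_congr rfl c2] at d1
      exact d1
    refine c1.trans ?_
    have c5 : (sob m).Γ (e R 0) (e R 0) y ≤ 1 := b2 R
    calc qf G k c y * (sob m).Γ (e R 0) (e R 0) y ≤ qf G k c y * 1 :=
          mul_le_mul_of_nonneg_left c5 c4
      _ = qf G k c y := mul_one _
  -- exchange
  have h2 : ∀ᵐ y ∂m, ∀ᵐ p ∂m, ∀ (k : ℕ) (c : Fin k → ℚ),
      (∑ i : Fin k, (c i : ℝ) * g i p y) ^ 2 ≤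
        ∑ i : Fin k, ∑ j : Fin k, (c i : ℝ) * c j * G i j y := by
    have d1 : ∀ k : ℕ, ∀ c : Fin k → ℚ, ∀ᵐ y ∂m, ∀ᵐ p ∂m,
        (∑ i : Fin k, (c i : ℝ) * g i p y) ^ 2 ≤
          ∑ i : Fin k, ∑ j : Fin k, (c i : ℝ) * c j * G i j y := by
      intro k c
      have hmeas : MeasurableSet {z : M × M | (∑ i : Fin k, (c i : ℝ) * g i z.1 z.2) ^ 2 ≤
          ∑ i : Fin k, ∑ j : Fin k, (c i : ℝ) * c j * G i j z.2} := by
        refine measurableSet_le ?_ ?_
        · refine (Finset.measurable_sum _ fun i _ => ?_).pow_const 2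
          exact (hT.ver i).1.const_mul _
        · refine Finset.measurable_sum _ fun i _ => Finset.measurable_sum _ fun j _ => ?_
          exact ((hT.meas i j).comp measurable_snd).const_mul _
      refine (Measure.ae_ae_comm (μ := m) (ν := m) (p := fun p y =>
        (∑ i : Fin k, (c i : ℝ) * g i p y) ^ 2 ≤
          ∑ i : Fin k, ∑ j : Fin k, (c i : ℝ) * c j * G i j y) hmeas).1 ?_
      refine Eventually.of_forall fun p => ?_
      filter_upwards [h1 p] with y hy
      have := hy k fun i => if hi : i < k then (c ⟨i, hi⟩ : ℝ) else 0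
      unfold qf at this
      rw [Finset.sum_range, Finset.sum_range] at this
      simp_rw [Finset.sum_range] at this
      simpa using this
    have d2 : ∀ᵐ y ∂m, ∀ k : ℕ, ∀ c : Fin k → ℚ, ∀ᵐ p ∂m,
        (∑ i : Fin k, (c i : ℝ) * g i p y) ^ 2 ≤
          ∑ i : Fin k, ∑ j : Fin k, (c i : ℝ) * c j * G i j y :=
      ae_all_iff.2 fun k => ae_all_iff.2 fun c => d1 k c
    filter_upwards [d2] with y hy
    exact ae_all_iff.2 fun k => ae_all_iff.2 fun c => hy k c
  filter_upwards [h2] with y hy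
  filter_upwards [hy] with p hp
  exact fun k c => cs_of_rat (w := fun i => g i p y) (K := fun i j => G i j y) hp k c

/-- block D0b -/
theorem blk_D0b : Blk_D0b.{u} := by
  intro M _ _ _ _ _ m n K hS hG _
  have hfin := hS.std.hfin
  have hC : IsDir (sob m) := isDir_sob hfin hS.std.rcd.quadratic
  haveI := hG.dbl
  haveI : SigmaFinite m := sigmaFinite_of_ball hfin
  haveI : IsLocallyFiniteMeasure m :=
    ⟨fun x => ⟨Metric.ball x 1, Metric.ball_mem_nhds x one_pos, hfin x 1⟩⟩
  exact ⟨hasVer hfin hC, verCS hfin hC⟩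

end Vale.Agent.P233.PD
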