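import Vale.Agent.P233.Gig.IfB
import Vale.Agent.P233.H53.Stat
import Vale.Agent.P233.H53.Real
import Vale.Agent.P233.H950.Weak

/-! P233, blocks B2, B3 from B0r, B1 (helper950). -/

set_option linter.all false

open MeasureTheory Filter Topology Set
open scoped ENNReal NNReal InnerProductSpace

universe u v

namespace Vale.Agent.P233

namespace H950

section stat

variable {M : Type*} [MeasurableSpace M] {m : Measure M} {C : Calc m}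

/-- pointwise bound of the entropy integrand -/
theorem ent_bd {L r : ℝ} (h : r = Real.exp L) : 0 ≤ r * L - (r - 1) ∧ r * L - (r - 1) ≤ (r - 1) ^ 2 := by
  have hr : 0 < r := h ▸ Real.exp_pos L
  have hL : L = Real.log r := by rw [h, Real.log_exp]
  constructor
  · have h1 := Real.log_le_sub_one_of_pos (inv_pos.2 hr)
    rw [Real.log_inv] at h1
    have h2 : r * (-Real.log r) ≤ r * (r⁻¹ - 1) := mul_le_mul_of_nonneg_left h1 hr.le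
    have h3 : r * (r⁻¹ - 1) = 1 - r := by field_simp
    rw [hL]; linarith
  · have h1 := Real.log_le_sub_one_of_pos hr
    have h2 : r * Real.log r ≤ r * (r - 1) := mul_le_mul_of_nonneg_left h1 hr.le
    rw [hL]; nlinarith

theorem ex_ae (f : M →ₘ[m] ℝ) : ∀ᵐ x ∂m, ex f x = Real.exp (f x) :=
  AEEqFun.coeFn_comp Real.exp Real.continuous_exp f

theorem rh_ae (ε : ℝ) (φ u : ℝ → M →ₘ[m] ℝ) (t : ℝ) :
    ∀ᵐ x ∂m, rh ε φ u t x = Real.exp (LL ε φ u t x) := ex_ae _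

theorem rh_nonneg (ε : ℝ) (φ u : ℝ → M →ₘ[m] ℝ) (t : ℝ) : 0 ≤ rh ε φ u t := by
  rw [nonneg_iff_ae]
  filter_upwards [rh_ae ε φ u t] with x hx
  rw [hx]; exact (Real.exp_pos _).le

/-- `0 ≤ Ent ≤ ∫ (ρ-1)²` -/
theorem EntB_bd {ε : ℝ} {φ u : ℝ → M →ₘ[m] ℝ} {t : ℝ} (h : MemLp (rh ε φ u t - 1 : M →ₘ[m] ℝ) 2 m)
    (hL : MemLp (LL ε φ u t) 2 m) (ht : MemLp (rh ε φ u t) ∞ m) :
    0 ≤ EntB m ε φ u t ∧ EntB m ε φ u t ≤ I ((rh ε φ u t - 1) ^ 2) := by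
  have hae : ∀ᵐ x ∂m, (rh ε φ u t * LL ε φ u t - (rh ε φ u t - 1) : M →ₘ[m] ℝ) x =
      rh ε φ u t x * LL ε φ u t x - (rh ε φ u t x - 1) := by
    filter_upwards [sub_ae (rh ε φ u t * LL ε φ u t) (rh ε φ u t - 1),
      mul_ae (rh ε φ u t) (LL ε φ u t), sub_ae (rh ε φ u t) 1, one_ae (m := m)] with x a1 a2 a3 a4
    rw [a1, a2, a3, a4]
  have hle : (rh ε φ u t * LL ε φ u t - (rh ε φ u t - 1) : M →ₘ[m] ℝ) ≤ (rh ε φ u t - 1) ^ 2 := by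
    rw [le_iff_ae]
    filter_upwards [hae, sq_ae (rh ε φ u t - 1), sub_ae (rh ε φ u t) 1, one_ae (m := m),
      rh_ae ε φ u t] with x a1 a2 a3 a4 a5
    rw [a1, a2, a3, a4]
    exact (ent_bd a5).2
  have h0 : (0 : M →ₘ[m] ℝ) ≤ rh ε φ u t * LL ε φ u t - (rh ε φ u t - 1) := by
    rw [nonneg_iff_ae]
    filter_upwards [hae, rh_ae ε φ u t] with x a1 a5
    rw [a1]
    exact (ent_bd a5).1
  have hm : MemLp ((rh ε φ u t - 1) ^ 2 : M →ₘ[m] ℝ) 1 m := mem_sq h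
  refine ⟨I_nonneg h0, I_mono ?_ hm hle⟩
  refine mem_of_le hm ?_
  filter_upwards [nonneg_iff_ae.1 h0, le_iff_ae.1 hle] with x a1 a2
  rw [abs_of_nonneg a1]
  exact a2.trans (le_abs_self _)

end stat

section real

/-- backward Gronwall inequality -/
theorem gron {a b k : ℝ} (hab : a ≤ b) {A α : ℝ → ℝ}
    (hA : ∀ t ∈ Icc a b, HasDerivWithinAt A (α t) (Icc a b) t)
    (hα : ∀ t ∈ Icc a b, -(k * A t) ≤ α t) {t : ℝ} (ht : t ∈ Icc a b) :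
    A t * Real.exp (k * t) ≤ A b * Real.exp (k * b) := by
  have hd : ∀ x ∈ Icc a b, HasDerivWithinAt (fun t => A t * Real.exp (k * t))
      (α x * Real.exp (k * x) + A x * (Real.exp (k * x) * k)) (Icc a b) x := by
    intro x hx
    have h1 : HasDerivWithinAt (fun t => Real.exp (k * t)) (Real.exp (k * x) * k) (Icc a b) x := by
      have := ((hasDerivAt_id x).const_mul k).exp
      simp only [id, mul_one] at this
      exact this.hasDerivWithinAt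
    exact (hA x hx).mul h1
  have := H53.le_of_deriv_ge (κ := 0) hd (fun x hx => by
    have h1 := mul_le_mul_of_nonneg_right (hα x hx) (Real.exp_pos (k * x)).le
    have h2 : -(k * A x) * Real.exp (k * x) = -(A x * (Real.exp (k * x) * k)) := by ring
    rw [h2] at h1
    linarith) ht ⟨hab, le_rfl⟩ ht.2
  simpa using this

end real

/-- all inputs of the real-variable argument -/
theorem lvb_facts (h0 : Blk_B0r.{u}) (h1 : Blk_B1.{u}) {K N s Λ : ℝ} (hs1 : s < 1)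
    {M : Type u} [MeasurableSpace M] {m : Measure M} [SigmaFinite m] {C : Calc m}
    {E : Type v} [NormedAddCommGroup E] [InnerProductSpace ℝ E] [CompleteSpace E]
    {Gr : (M →ₘ[m] ℝ) → M → E} {U : (M →ₘ[m] ℝ) → (M →ₘ[m] ℝ) → M → E}
    {D : (M →ₘ[m] ℝ) → (M →ₘ[m] ℝ)} (hX : CtB C K N Gr U D) {ε : ℝ} {l : M →ₘ[m] ℝ}
    {φ u : ℝ → M →ₘ[m] ℝ} (hL : LvB C ε s Λ l φ u) :
    0 ≤ Λ ∧ (∀ t ∈ Icc s 1, K * C.EA ε φ u t ≤ C.G2 (φ t) (rh ε φ u t)) ∧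
    (∀ t ∈ Icc s 1, K * C.EB ε φ u t ≤ C.G2 (u t) (rh ε φ u t)) ∧
    (∀ t ∈ Icc s 1, 0 ≤ C.EA ε φ u t) ∧ (∀ t ∈ Icc s 1, 0 ≤ C.EB ε φ u t) ∧
    (∀ t ∈ Icc s 1, C.EA ε φ u t ≤ 4 * Λ ^ 2 * Real.exp |K|) ∧
    (∀ t ∈ Icc s 1, C.EB ε φ u t ≤ 4 * Λ ^ 2 * Real.exp |K|) ∧
    (∀ t ∈ Icc s 1, |EntB m ε φ u t| ≤ Λ) ∧
    |C.EA ε φ u 1 - C.EB ε φ u 1| ≤ 2 * ε * (2 * Λ ^ 2) ∧
    (ε ^ 2 * C.EV ε φ u 1 ≤ ε * Λ ^ 2) ∧ (∀ t ∈ Icc s 1, 0 ≤ C.EV ε φ u t) := by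
  have hG := hX.gam
  have hB : C.BEi K := hG.bei hX.hN hX.be
  have hD := hG.toIsDir
  have hε := hL.reg.hε
  have hε1 := hL.hε1
  obtain ⟨r1, -, -, -, B, hBd⟩ := h0 M m C K hG hB ε s 1 φ u hL.reg
  obtain ⟨dA, dB, -, -, -, -, -, -, hEV, -⟩ := h1 M m C K hG hB ε s 1 φ u hL.reg
  have h11 : (1 : ℝ) ∈ Icc s 1 := ⟨hs1.le, le_rfl⟩
  have uW : ∀ t ∈ Icc s 1, u t ∈ C.W := fun t ht => (hG.test_A (hL.reg.u_mem t ht).1).1
  have φW : ∀ t ∈ Icc s 1, φ t ∈ C.W := fun t ht => (hG.test_A (hL.reg.φ_mem t ht).1).1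
  have LW : ∀ t ∈ Icc s 1, LL ε φ u t ∈ C.W := fun t ht => (hG.test_A (r1 t ht).1.1).1
  have lW : l ∈ C.W := (hG.test_A hL.l_mem.1).1
  have w0 := fun t => rh_nonneg (m := m) ε φ u t
  have wt : ∀ t ∈ Icc s 1, MemLp (rh ε φ u t) ∞ m := fun t ht => by
    have := (hG.test_A (r1 t ht).2.2.1.1).2
    have h2 := mem_add this mem_top_one
    have e : rh ε φ u t - 1 + 1 = rh ε φ u t := by ring
    rwa [e] at h2
  have hΛ : 0 ≤ Λ := (hD.E_nonneg (uW 1 h11)).trans (hL.bd.en 1 h11)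
  have wle : ∀ t ∈ Icc s 1, ∀ᵐ x ∂m, |rh ε φ u t x| ≤ Λ := fun t ht => by
    filter_upwards [hL.bd.rho t ht, nonneg_iff_ae.1 (w0 t)] with x a1 a2
    rwa [abs_of_nonneg a2]
  have nn : ∀ t, ∀ f ∈ C.W, 0 ≤ I (rh ε φ u t * C.Γ f f) := fun t f hf =>
    I_nonneg (mul_nonneg (w0 t) (hD.nonneg f hf))
  have upper : ∀ t ∈ Icc s 1, ∀ f ∈ C.W, ∀ g ∈ C.W, I (C.Γ f f) ≤ Λ → I (C.Γ g g) ≤ Λ →
      |I (rh ε φ u t * C.Γ f g)| ≤ Λ ^ 2 := by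
    intro t ht f hf g hg h2 h3
    refine (I_mul_abs_le (hD.Γ_mem1 hf hg) (wle t ht)).trans ?_
    rw [sq]
    refine mul_le_mul_of_nonneg_left ((hD.int_abs_Γ_le hf hg).trans ?_) hΛ
    calc √(I (C.Γ f f)) * √(I (C.Γ g g)) ≤ √Λ * √Λ :=
          mul_le_mul (Real.sqrt_le_sqrt h2) (Real.sqrt_le_sqrt h3) (Real.sqrt_nonneg _)
            (Real.sqrt_nonneg _)
      _ = Λ := Real.mul_self_sqrt hΛ
  have boch : ∀ t ∈ Icc s 1, ∀ b ∈ C.TestI, K * I (rh ε φ u t * C.Γ b b) ≤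
      C.G2 b (rh ε φ u t) := by
    intro t ht b hb
    have h2 := hX.hd.bochner b hb (rh ε φ u t) (hG.test_A (r1 t ht).2.2.1.1) (w0 t)
    have h3 : 0 ≤ I (rh ε φ u t * D b ^ 2) := I_nonneg (mul_nonneg (w0 t) (sq_nonneg' _))
    linarith
  have hα : ∀ t ∈ Icc s 1, K * C.EA ε φ u t ≤ C.G2 (φ t) (rh ε φ u t) := fun t ht =>
    boch t ht _ (hL.reg.φ_mem t ht)
  have hβ : ∀ t ∈ Icc s 1, K * C.EB ε φ u t ≤ C.G2 (u t) (rh ε φ u t) := fun t ht =>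
    boch t ht _ (hL.reg.u_mem t ht)
  have hA0 : ∀ t ∈ Icc s 1, 0 ≤ C.EA ε φ u t := fun t ht => nn t _ (φW t ht)
  have hB0 : ∀ t ∈ Icc s 1, 0 ≤ C.EB ε φ u t := fun t ht => nn t _ (uW t ht)
  have hB1 : ∀ t ∈ Icc s 1, C.EB ε φ u t ≤ Λ ^ 2 := fun t ht =>
    (le_abs_self _).trans (upper t ht _ (uW t ht) _ (uW t ht) (hL.bd.en t ht) (hL.bd.en t ht))
  -- time `1`
  have hLl : LL ε φ u 1 = l := by
    unfold LL
    rw [hL.fin, add_sub_cancel_left, smul_smul, inv_mul_cancel₀ hε.ne', one_smul]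
  have hend0 : C.EA ε φ u 1 = C.EB ε φ u 1 + 2 * ε * I (rh ε φ u 1 * C.Γ (u 1) l)
      + ε ^ 2 * I (rh ε φ u 1 * C.Γ l l) := by
    unfold Calc.EA Calc.EB
    rw [hL.fin, hD.Γ_expand ε (uW 1 h11) lW, mul_add, mul_add, mul_smul_comm, mul_smul_comm]
    have m1 := mem_mul_top (p := 1) (wt 1 h11) (hD.Γ_mem1 (uW 1 h11) (uW 1 h11))
    have m2 := mem_mul_top (p := 1) (wt 1 h11) (hD.Γ_mem1 (uW 1 h11) lW)
    have m3 := mem_mul_top (p := 1) (wt 1 h11) (hD.Γ_mem1 lW lW)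
    rw [I_add (mem_add m1 (mem_smul _ m2)) (mem_smul _ m3), I_add m1 (mem_smul _ m2), I_smul,
      I_smul]
  have hul := upper 1 h11 _ (uW 1 h11) _ lW (hL.bd.en 1 h11) hL.l_en
  have hll := upper 1 h11 _ lW _ lW hL.l_en hL.l_en
  have hll0 := nn 1 _ lW
  have hsq : 0 ≤ Λ ^ 2 := sq_nonneg _
  have hend : |C.EA ε φ u 1 - C.EB ε φ u 1| ≤ 2 * ε * (2 * Λ ^ 2) := by
    rw [hend0]
    have e1 : C.EB ε φ u 1 + 2 * ε * I (rh ε φ u 1 * C.Γ (u 1) l)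
      + ε ^ 2 * I (rh ε φ u 1 * C.Γ l l) - C.EB ε φ u 1 =
      2 * ε * I (rh ε φ u 1 * C.Γ (u 1) l) + ε ^ 2 * I (rh ε φ u 1 * C.Γ l l) := by ring
    rw [e1]
    have e2 : ε ^ 2 ≤ ε := by nlinarith
    calc |2 * ε * I (rh ε φ u 1 * C.Γ (u 1) l) + ε ^ 2 * I (rh ε φ u 1 * C.Γ l l)|
        ≤ |2 * ε * I (rh ε φ u 1 * C.Γ (u 1) l)| + |ε ^ 2 * I (rh ε φ u 1 * C.Γ l l)| :=
          abs_add_le _ _
      _ = 2 * ε * |I (rh ε φ u 1 * C.Γ (u 1) l)| + ε ^ 2 * |I (rh ε φ u 1 * C.Γ l l)| := by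
          rw [abs_mul (2 * ε), abs_mul (ε ^ 2), abs_of_nonneg (by positivity : (0:ℝ) ≤ 2 * ε),
            abs_of_nonneg (by positivity : (0:ℝ) ≤ ε ^ 2)]
      _ ≤ 2 * ε * Λ ^ 2 + ε * Λ ^ 2 := by
          refine add_le_add (mul_le_mul_of_nonneg_left hul (by positivity)) ?_
          exact mul_le_mul e2 hll (abs_nonneg _) hε.le
      _ ≤ 2 * ε * (2 * Λ ^ 2) := by nlinarith
  have hA1 : C.EA ε φ u 1 ≤ 4 * Λ ^ 2 := by
    have h2 := hB1 1 h11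
    have e2 : ε ^ 2 ≤ 1 := by nlinarith
    rw [hend0]
    have h3 : 2 * ε * I (rh ε φ u 1 * C.Γ (u 1) l) ≤ 2 * Λ ^ 2 := by
      calc 2 * ε * I (rh ε φ u 1 * C.Γ (u 1) l) ≤ 2 * ε * Λ ^ 2 :=
            mul_le_mul_of_nonneg_left ((le_abs_self _).trans hul) (by positivity)
        _ ≤ 2 * Λ ^ 2 := by nlinarith
    have h4 : ε ^ 2 * I (rh ε φ u 1 * C.Γ l l) ≤ Λ ^ 2 := by
      calc ε ^ 2 * I (rh ε φ u 1 * C.Γ l l) ≤ 1 * Λ ^ 2 :=
            mul_le_mul e2 ((le_abs_self _).trans hll) hll0 zero_le_one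
        _ = Λ ^ 2 := one_mul _
    linarith
  have hexp1 : 1 ≤ Real.exp |K| := Real.one_le_exp (abs_nonneg K)
  have hAt : ∀ t ∈ Icc s 1, C.EA ε φ u t ≤ 4 * Λ ^ 2 * Real.exp |K| := by
    intro t ht
    have h2 := gron (k := ε * |K|) hs1.le dA (fun x hx => by
      have a1 := mul_le_mul_of_nonneg_left (hα x hx) hε.le
      have a2 : -|K| ≤ K := neg_abs_le K
      have a3 := mul_le_mul_of_nonneg_right a2 (mul_nonneg hε.le (hA0 x hx))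
      have a4 : -|K| * (ε * C.EA ε φ u x) = -(ε * |K| * C.EA ε φ u x) := by ring
      have a5 : K * (ε * C.EA ε φ u x) = ε * (K * C.EA ε φ u x) := by ring
      rw [a4, a5] at a3
      exact a3.trans a1) ht
    have h3 : C.EA ε φ u t ≤ C.EA ε φ u 1 * Real.exp (ε * |K| * (1 - t)) := by
      have e1 : Real.exp (ε * |K| * 1) = Real.exp (ε * |K| * (1 - t)) * Real.exp (ε * |K| * t) := by
        rw [← Real.exp_add]; ring_nf
      rw [e1, ← mul_assoc] at h2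
      exact le_of_mul_le_mul_right h2 (Real.exp_pos _)
    refine h3.trans ?_
    refine mul_le_mul hA1 (Real.exp_le_exp.2 ?_) (Real.exp_pos _).le (by positivity)
    have ht1 : 1 - t ≤ 1 := by linarith [ht.1, hL.hs]
    have ht0 : 0 ≤ 1 - t := by linarith [ht.2]
    calc ε * |K| * (1 - t) ≤ 1 * |K| * 1 := by gcongr
      _ = |K| := by ring
  have hBt : ∀ t ∈ Icc s 1, C.EB ε φ u t ≤ 4 * Λ ^ 2 * Real.exp |K| := by
    intro t ht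
    have h2 := hB1 t ht
    nlinarith
  have hEnt : ∀ t ∈ Icc s 1, |EntB m ε φ u t| ≤ Λ := by
    intro t ht
    have h2 := EntB_bd (m := m) (hD.memLp _ (hG.test_A (r1 t ht).2.2.1.1).1)
      (hD.memLp _ (LW t ht)) (wt t ht)
    rw [abs_of_nonneg h2.1]
    exact h2.2.trans (hL.bd.l2 t ht)
  have hEV1 : ε ^ 2 * C.EV ε φ u 1 ≤ ε * Λ ^ 2 := by
    unfold Calc.EV
    rw [hLl]
    have e2 : ε ^ 2 ≤ ε := by nlinarith
    exact mul_le_mul e2 ((le_abs_self _).trans hll) hll0 hε.le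
  exact ⟨hΛ, hα, hβ, hA0, hB0, hAt, hBt, hEnt, hend, hEV1, fun t ht => nn t _ (LW t ht)⟩

/-- the constants -/
noncomputable def cs1 (K s s' Λ : ℝ) : ℝ :=
  2 * Λ / (s' - s) + 2 * Λ ^ 2 + |K| * (4 * Λ ^ 2 * Real.exp |K|) * (1 - s)

noncomputable def cs2 (K s s' Λ : ℝ) : ℝ :=
  Λ ^ 2 + 2 * (|K| * (4 * Λ ^ 2 * Real.exp |K|) * (1 - s)) + 4 * cs1 K s s' Λ

/-- the conclusions of the real-variable argument -/
theorem lvb_concl (h0 : Blk_B0r.{u}) (h1 : Blk_B1.{u}) {K N s s' Λ : ℝ} (hss : s < s')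
    (hs1 : s' < 1)
    {M : Type u} [MeasurableSpace M] {m : Measure M} [SigmaFinite m] {C : Calc m}
    {E : Type v} [NormedAddCommGroup E] [InnerProductSpace ℝ E] [CompleteSpace E]
    {Gr : (M →ₘ[m] ℝ) → M → E} {U : (M →ₘ[m] ℝ) → (M →ₘ[m] ℝ) → M → E}
    {D : (M →ₘ[m] ℝ) → (M →ₘ[m] ℝ)} (hX : CtB C K N Gr U D) {ε : ℝ} {l : M →ₘ[m] ℝ}
    {φ u : ℝ → M →ₘ[m] ℝ} (hL : LvB C ε s Λ l φ u) :
    (∀ t ∈ Icc s' 1, |C.EA ε φ u t - C.EB ε φ u t| ≤ 2 * ε * cs1 K s s' Λ) ∧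
    (∀ t ∈ Icc s' 1, ε ^ 2 * C.EV ε φ u t ≤ ε * cs2 K s s' Λ) ∧
    (∫ t in s'..1, (C.G2 (φ t) (rh ε φ u t) + C.G2 (u t) (rh ε φ u t)) / 2) ≤
      2 * cs1 K s s' Λ ∧
    ∃ D0 : ℝ, ∀ t ∈ Icc s 1, ε ^ 2 * C.EV ε φ u t = C.EA ε φ u t + C.EB ε φ u t - 2 * D0 := by
  have hs1' : s < 1 := hss.trans hs1
  obtain ⟨hΛ, hα, hβ, hA0, hB0, hAt, hBt, hEnt, hend, hEV1, hEV0⟩ := lvb_facts h0 h1 hs1' hX hL
  have hG := hX.gam
  have hB : C.BEi K := hG.bei hX.hN hX.be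
  obtain ⟨dA, dB, hcst, dH, -, -, -, -, hEV, -⟩ := h1 M m C K hG hB ε s 1 φ u hL.reg
  set D0 : ℝ := I (rh ε φ u 1 * C.Γ (φ 1) (u 1)) with hD0
  have hEV' : ∀ t ∈ Icc s 1, ε ^ 2 * C.EV ε φ u t = C.EA ε φ u t + C.EB ε φ u t - 2 * D0 := by
    intro t ht
    rw [hEV t ht, hcst t ht]
  have key := H53.energy_real (K := K) (D := D0) hL.reg.hε hss hs1.le dA dB dH hα hβ hA0 hB0 hAt
    hBt hEnt (C₂ := 2 * Λ ^ 2) (C₃ := Λ ^ 2) hend (by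
      rw [← hEV' 1 ⟨hs1'.le, le_rfl⟩]; exact hEV1) (Cs := cs1 K s s' Λ) rfl
  obtain ⟨k1, k2, k3, k4⟩ := key
  refine ⟨k1, fun t ht => ?_, k4, D0, hEV'⟩
  rw [hEV' t ⟨hss.le.trans ht.1, ht.2⟩]
  exact k2 t ht

theorem cs1_nonneg {K s s' Λ : ℝ} (hΛ : 0 ≤ Λ) (hss : s < s') (hs1 : s' < 1) :
    0 ≤ cs1 K s s' Λ := by
  have h1 : 0 < s' - s := by linarith
  have h2 : 0 ≤ 1 - s := by linarith
  unfold cs1
  positivity

theorem cs2_nonneg {K s s' Λ : ℝ} (hΛ : 0 ≤ Λ) (hss : s < s') (hs1 : s' < 1) :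
    0 ≤ cs2 K s s' Λ := by
  have h1 := cs1_nonneg (K := K) hΛ hss hs1
  have h2 : 0 ≤ 1 - s := by linarith
  unfold cs2
  positivity

end H950

open H950 in
theorem blk_B2_of (h0 : Blk_B0r.{u}) (h1 : Blk_B1.{u}) : Blk_B2.{u, v} := by
  intro K N s s' Λ hs hss hs1
  refine ⟨cs2 K s s' Λ + 2 * cs1 K s s' Λ + 4 * Λ ^ 2 * Real.exp |K|, ?_⟩
  intro M _ m _ C E _ _ _ Gr U D hX ε l φ u hL t ht
  have hs1' : s < 1 := hss.trans hs1
  obtain ⟨hΛ, hα, hβ, hA0, hB0, hAt, hBt, hEnt, hend, hEV1, hEV0⟩ := lvb_facts h0 h1 hs1' hX hL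
  obtain ⟨k1, k2, k3, D0, hD0⟩ := lvb_concl h0 h1 hss hs1 hX hL
  have hε := hL.reg.hε
  have c1 := cs1_nonneg (K := K) hΛ hss hs1
  have c2 := cs2_nonneg (K := K) hΛ hss hs1
  have c3 : 0 ≤ 4 * Λ ^ 2 * Real.exp |K| := by positivity
  have ht' : t ∈ Icc s 1 := ⟨hss.le.trans ht.1, ht.2⟩
  have h11 : (1 : ℝ) ∈ Icc s' 1 := ⟨hs1.le, le_rfl⟩
  have h11' : (1 : ℝ) ∈ Icc s 1 := ⟨hs1'.le, le_rfl⟩
  have near : ∀ r ∈ Icc s' 1, |C.EA ε φ u r - D0| ≤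
      ε * (cs2 K s s' Λ / 2 + cs1 K s s' Λ) := by
    intro r hr
    have hr' : r ∈ Icc s 1 := ⟨hss.le.trans hr.1, hr.2⟩
    have a1 := hD0 r hr'
    have a2 := k2 r hr
    have a3 : 0 ≤ ε ^ 2 * C.EV ε φ u r := mul_nonneg (sq_nonneg _) (hEV0 r hr')
    have a4 := abs_le.1 (k1 r hr)
    have a5 : 0 ≤ ε * cs2 K s s' Λ := mul_nonneg hε.le c2
    rw [abs_le]
    constructor <;> nlinarith [a4.1, a4.2]
  refine ⟨?_, ?_, ?_, ?_⟩
  · have a2 := k2 t ht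
    have a3 : ε * (ε * C.EV ε φ u t) ≤ ε * cs2 K s s' Λ := by
      rw [← mul_assoc, ← sq]; exact a2
    have a4 := le_of_mul_le_mul_left a3 hε
    linarith
  · have a1 := k1 t ht
    have a2 : ε * cs1 K s s' Λ * 2 ≤ (cs2 K s s' Λ + 2 * cs1 K s s' Λ +
      4 * Λ ^ 2 * Real.exp |K|) * ε := by nlinarith [mul_nonneg hε.le c2, mul_nonneg hε.le c3]
    linarith
  · have a1 := hAt t ht'
    linarith
  · have a1 := near t ht
    have a2 := near 1 h11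
    have a3 : |C.EA ε φ u t - C.EA ε φ u 1| ≤ |C.EA ε φ u t - D0| + |C.EA ε φ u 1 - D0| := by
      have : C.EA ε φ u t - C.EA ε φ u 1 = (C.EA ε φ u t - D0) - (C.EA ε φ u 1 - D0) := by ring
      rw [this]
      exact abs_sub _ _
    have a4 : ε * (cs2 K s s' Λ / 2 + cs1 K s s' Λ) + ε * (cs2 K s s' Λ / 2 + cs1 K s s' Λ) =
      (cs2 K s s' Λ + 2 * cs1 K s s' Λ) * ε := by ring
    have a5 : 0 ≤ 4 * Λ ^ 2 * Real.exp |K| * ε := mul_nonneg c3 hε.le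
    nlinarith

/-- `Γ((f+g)/2) ≤ (Γ f + Γ g)/2` -/
theorem H950.Γ_half_le {M : Type*} [MeasurableSpace M] {m : Measure M} {C : Calc m} (hD : IsDir C)
    {f g w : M →ₘ[m] ℝ} (hf : f ∈ C.W) (hg : g ∈ C.W) (hw0 : 0 ≤ w) (hwt : MemLp w ∞ m) :
    I (w * C.Γ ((2 : ℝ)⁻¹ • (f + g)) ((2 : ℝ)⁻¹ • (f + g))) ≤
      (I (w * C.Γ f f) + I (w * C.Γ g g)) / 2 := by
  have hfg := hD.add_mem f hf g hg
  have hs := hD.smul_mem (2 : ℝ)⁻¹ _ hfg
  have e1 : C.Γ ((2 : ℝ)⁻¹ • (f + g)) ((2 : ℝ)⁻¹ • (f + g)) = (4 : ℝ)⁻¹ • C.Γ (f + g) (f + g) := by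
    rw [hD.smul_left _ _ hfg _ hs, hD.Γ_smul_right _ hfg hfg, smul_smul]
    norm_num
  have e2 := hD.Γ_expand 1 hf hg
  rw [one_smul, one_pow, one_smul, mul_one] at e2
  have m1 := mem_mul_top (p := 1) hwt (hD.Γ_mem1 hf hf)
  have m2 := mem_mul_top (p := 1) hwt (hD.Γ_mem1 hg hg)
  have m3 := mem_mul_top (p := 1) hwt (hD.Γ_mem1 hfg hfg)
  rw [e1, mul_smul_comm, I_smul]
  have e3 : I (w * C.Γ (f + g) (f + g)) ≤ 2 * I (w * C.Γ f f) + 2 * I (w * C.Γ g g) := by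
    rw [← I_smul, ← I_smul, ← I_add (mem_smul _ m1) (mem_smul _ m2)]
    refine I_mono m3 (mem_add (mem_smul _ m1) (mem_smul _ m2)) (le_iff_ae.2 ?_)
    have hne := hD.Γ_nonneg_ae (hD.sub_mem hf hg)
    have e4 := hD.Γ_expand (-1) hf hg
    rw [neg_one_smul, ← sub_eq_add_neg] at e4
    filter_upwards [mul_ae w (C.Γ (f + g) (f + g)), eq_iff_ae.1 e2,
      add_ae (C.Γ f f + (2 : ℝ) • C.Γ f g) (C.Γ g g), add_ae (C.Γ f f) ((2 : ℝ) • C.Γ f g),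
      smul_ae (C.Γ f g) (2 : ℝ), add_ae ((2 : ℝ) • (w * C.Γ f f)) ((2 : ℝ) • (w * C.Γ g g)),
      smul_ae (w * C.Γ f f) (2 : ℝ), smul_ae (w * C.Γ g g) (2 : ℝ), mul_ae w (C.Γ f f),
      mul_ae w (C.Γ g g), nonneg_iff_ae.1 hw0, hne, eq_iff_ae.1 e4,
      add_ae (C.Γ f f + ((2 : ℝ) * (-1)) • C.Γ f g) (((-1 : ℝ) ^ 2) • C.Γ g g),
      add_ae (C.Γ f f) (((2 : ℝ) * (-1)) • C.Γ f g), smul_ae (C.Γ f g) ((2 : ℝ) * (-1)),
      smul_ae (C.Γ g g) ((-1 : ℝ) ^ 2)]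
      with x a1 a2 a3 a4 a5 a6 a7 a8 a9 a10 a11 a12 a13 a14 a15 a16 a17
    rw [a1, a2, a3, a4, a5, a6, a7, a8, a9, a10]
    rw [a13, a14, a15, a16, a17] at a12
    nlinarith
  linarith

open H950 in
theorem blk_B3_of (h0 : Blk_B0r.{u}) (h1 : Blk_B1.{u}) : Blk_B3.{u, v} := by
  intro K N s s' Λ hs hss hs1
  refine ⟨(5 + 4 * |N|) * (4 * cs1 K s s' Λ + 2 * (|K| * (4 * Λ ^ 2 * Real.exp |K|)) +
    |K| * cs2 K s s' Λ), ?_⟩
  intro M _ m _ C E _ _ _ Gr U D hX ε l φ u hL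
  have hs1' : s < 1 := hss.trans hs1
  obtain ⟨hΛ, hα, hβ, hA0, hB0, hAt, hBt, hEnt, hend, hEV1, hEV0⟩ := lvb_facts h0 h1 hs1' hX hL
  obtain ⟨k1, k2, k3, D0, hD0⟩ := lvb_concl h0 h1 hss hs1 hX hL
  have hG := hX.gam
  have hB : C.BEi K := hG.bei hX.hN hX.be
  have hD := hG.toIsDir
  have hε := hL.reg.hε
  have hε1 := hL.hε1
  have hNpos : 0 < N := hX.hN
  have hNabs : |N| = N := abs_of_pos hNpos
  obtain ⟨r1, -, -, -, -⟩ := h0 M m C K hG hB ε s 1 φ u hL.reg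
  obtain ⟨dA, dB, -, -, cα, cβ, cV, -, -, hpar⟩ := h1 M m C K hG hB ε s 1 φ u hL.reg
  have hsub : Icc s' 1 ⊆ Icc s 1 := Icc_subset_Icc hss.le le_rfl
  have hcA : ContinuousOn (C.EA ε φ u) (Icc s 1) := fun t ht => (dA t ht).continuousWithinAt
  have hcB : ContinuousOn (C.EB ε φ u) (Icc s 1) := fun t ht => (dB t ht).continuousWithinAt
  set α : ℝ → ℝ := fun t => C.G2 (φ t) (rh ε φ u t) with hαdef
  set β : ℝ → ℝ := fun t => C.G2 (u t) (rh ε φ u t) with hβdef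
  set q : ℝ → ℝ := fun t => α t + β t + |K| * (C.EA ε φ u t + C.EB ε φ u t)
    + |K| * (ε ^ 2 * C.EV ε φ u t) with hq
  have hqc : ContinuousOn q (Icc s' 1) :=
    (((cα.add cβ).add ((hcA.add hcB).const_smul |K|)).add
      ((cV.const_smul (ε ^ 2)).const_smul |K|)).mono hsub
  refine ⟨fun t => (5 + 4 * |N|) * q t, hqc.const_smul (5 + 4 * |N|), ?_, ?_⟩
  · have c2 := cs2_nonneg (K := K) hΛ hss hs1
    have hle : s' ≤ 1 := hs1.le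
    have i1 : IntervalIntegrable (fun t => (α t + β t) / 2) volume s' 1 :=
      ContinuousOn.intervalIntegrable (by
        rw [uIcc_of_le hle]; exact ((cα.add cβ).mono hsub).div_const 2)
    have hqle : ∫ t in s'..1, q t ≤ ∫ t in s'..1, (2 * ((α t + β t) / 2) +
        (2 * (|K| * (4 * Λ ^ 2 * Real.exp |K|)) + |K| * cs2 K s s' Λ)) := by
      refine intervalIntegral.integral_mono_on hle ?_ ?_ ?_
      · exact ContinuousOn.intervalIntegrable (by rwa [uIcc_of_le hle])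
      · exact (i1.const_mul 2).add intervalIntegrable_const
      · intro t ht
        have a1 := hAt t (hsub ht)
        have a2 := hBt t (hsub ht)
        have a3 := k2 t ht
        have a4 : ε * cs2 K s s' Λ ≤ cs2 K s s' Λ := by nlinarith
        have a5 := mul_le_mul_of_nonneg_left (add_le_add a1 a2) (abs_nonneg K)
        have a6 := mul_le_mul_of_nonneg_left (a3.trans a4) (abs_nonneg K)
        simp only [hq]
        linarith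
    rw [intervalIntegral.integral_const_mul]
    refine mul_le_mul_of_nonneg_left ?_ (by positivity)
    refine hqle.trans ?_
    rw [intervalIntegral.integral_add (i1.const_mul 2) intervalIntegrable_const,
      intervalIntegral.integral_const_mul, intervalIntegral.integral_const, smul_eq_mul]
    have a7 : 0 ≤ 2 * (|K| * (4 * Λ ^ 2 * Real.exp |K|)) + |K| * cs2 K s s' Λ := by positivity
    have a8 : 1 - s' ≤ 1 := by linarith
    have a9 : (1 - s') * (2 * (|K| * (4 * Λ ^ 2 * Real.exp |K|)) + |K| * cs2 K s s' Λ) ≤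
      1 * (2 * (|K| * (4 * Λ ^ 2 * Real.exp |K|)) + |K| * cs2 K s s' Λ) :=
      mul_le_mul_of_nonneg_right a8 a7
    linarith [k3]
  · intro t ht
    obtain ⟨hLI, hθI, hrI, -, -⟩ := r1 t (hsub ht)
    have w0 := rh_nonneg (m := m) ε φ u t
    have wA := hG.test_A hrI.1
    have wt : MemLp (rh ε φ u t) ∞ m := by
      have h2 := mem_add wA.2 mem_top_one
      have e : rh ε φ u t - 1 + 1 = rh ε φ u t := by ring
      rwa [e] at h2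
    have b1 := hX.hd.bochner _ hθI _ wA w0
    have b2 := hX.hd.bochner _ hLI _ wA w0
    have b3 := hX.hd.bochnerN _ hLI _ wA w0
    have b4 := hpar t (hsub ht)
    have uW := (hG.test_A (hL.reg.u_mem t (hsub ht)).1).1
    have φW := (hG.test_A (hL.reg.φ_mem t (hsub ht)).1).1
    have b5 := Γ_half_le hD φW uW w0 wt
    change I (rh ε φ u t * C.Γ (th φ u t) (th φ u t)) ≤ (C.EA ε φ u t + C.EB ε φ u t) / 2 at b5
    have hT0 : 0 ≤ I (rh ε φ u t * C.Γ (th φ u t) (th φ u t)) :=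
      I_nonneg (mul_nonneg w0 (hD.nonneg _ (hG.test_A hθI.1).1))
    have hV0 := hEV0 t (hsub ht)
    set X := I (rh ε φ u t * D (th φ u t) ^ 2) with hXd
    set Y := I (rh ε φ u t * D (LL ε φ u t) ^ 2) with hYd
    set Z := I (rh ε φ u t * C.lap (LL ε φ u t) ^ 2) with hZd
    set T := I (rh ε φ u t * C.Γ (th φ u t) (th φ u t)) with hTd
    have e1 : I (rh ε φ u t * C.Γ (LL ε φ u t) (LL ε φ u t)) = C.EV ε φ u t := rfl
    rw [e1] at b2 b3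
    set V := C.EV ε φ u t with hVd
    have hX0 : 0 ≤ X := I_nonneg (mul_nonneg w0 (sq_nonneg' _))
    have hY0 : 0 ≤ Y := I_nonneg (mul_nonneg w0 (sq_nonneg' _))
    have hZ0 : 0 ≤ Z := I_nonneg (mul_nonneg w0 (sq_nonneg' _))
    have c1 : -|K| * T ≤ K * T := mul_le_mul_of_nonneg_right (neg_abs_le K) hT0
    have c2 : -|K| * V ≤ K * V := mul_le_mul_of_nonneg_right (neg_abs_le K) hV0
    have c3 : |K| * T ≤ |K| * ((C.EA ε φ u t + C.EB ε φ u t) / 2) :=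
      mul_le_mul_of_nonneg_left b5 (abs_nonneg K)
    have hε2 : 0 ≤ ε ^ 2 := sq_nonneg ε
    -- the main inequality
    have d1 : X - |K| * T ≤ C.G2 (th φ u t) (rh ε φ u t) := by linarith
    have d2 : (Y + N⁻¹ * Z) / 2 - |K| * V ≤ C.G2 (LL ε φ u t) (rh ε φ u t) := by linarith
    have d3 := mul_le_mul_of_nonneg_left d2 hε2
    have d4 : 2 * X + ε ^ 2 * Y / 4 + ε ^ 2 * (N⁻¹ * Z) / 4 ≤ q t := by
      simp only [hq, hαdef, hβdef]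
      have f1 : 0 ≤ |K| * (ε ^ 2 * V) := by positivity
      nlinarith
    have g1 : 0 ≤ ε ^ 2 * Y := by positivity
    have g2 : 0 ≤ ε ^ 2 * (N⁻¹ * Z) := by
      have := inv_pos.2 hNpos
      positivity
    have g3 : ε ^ 2 * Z = N * (ε ^ 2 * (N⁻¹ * Z)) := by
      field_simp
    have g4 : ε ^ 2 * (N⁻¹ * Z) ≤ 4 * q t := by linarith
    have g5 := mul_le_mul_of_nonneg_left g4 hNpos.le
    have g6 : 0 ≤ q t := by linarith
    rw [hNabs, g3]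
    nlinarith

end Vale.Agent.P233
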