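import Vale.Agent.P233.Gig.IfB
import Vale.Agent.P233.H53.Stat

/-! P233, block B4 from B0r, B1, B3 (helper950). -/

set_option linter.all false

open MeasureTheory Filter Topology Set
open scoped ENNReal NNReal InnerProductSpace

universe u v

namespace Vale.Agent.P233

theorem blk_B4_of (h0 : Blk_B0r.{u}) (h1 : Blk_B1.{u}) (h3 : Blk_B3.{u, v}) : Blk_B4.{u, v} := by
  intro K N s s' Λ hs hss hs1
  obtain ⟨c, hc⟩ := h3 K N s s' Λ hs hss hs1
  refine ⟨8 * c, ?_⟩
  intro M _ m _ C E _ _ _ Gr U D hX ε l φ u hL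
  obtain ⟨e, he, hec, heb⟩ := hc M m C E Gr U D hX ε l φ u hL
  have hG := hX.gam
  have hB : C.BEi K := hG.bei hX.hN hX.be
  have hD := hG.toIsDir
  obtain ⟨r1, -, -, -, B, hBd⟩ := h0 M m C K hG hB ε s 1 φ u hL.reg
  obtain ⟨-, -, -, -, -, -, -, hcont, -⟩ := h1 M m C K hG hB ε s 1 φ u hL.reg
  have hsub : Icc s' 1 ⊆ Icc s 1 := Icc_subset_Icc hss.le le_rfl
  have hkey : ∀ t ∈ Icc s' 1, ε ^ 2 * C.EV4 ε φ u t ≤ 8 * e t := by
    intro t ht
    obtain ⟨hLI, hθI, hrI, hrΓ, -⟩ := r1 t (hsub ht)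
    set L := LL ε φ u t with hLdef
    set w := rh ε φ u t with hw
    have hwe : (1 : M →ₘ[m] ℝ) + (w - 1) = w := by ring
    have hw0 : 0 ≤ w := by
      rw [nonneg_iff_ae]
      filter_upwards [hBd t (hsub ht), hBd t (hsub ht)] with x hx _
      have h2 : B⁻¹ ≤ B := hx.1.trans hx.2.1
      by_cases hB0 : 0 ≤ B
      · exact (inv_nonneg.2 hB0).trans hx.1
      · have hB1 : B < 0 := not_le.1 hB0
        have := AEEqFun.coeFn_comp Real.exp Real.continuous_exp (ε⁻¹ • (φ t - u t))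
        exact absurd hx.2.2.1 (by
          have : 0 ≤ C.Γ (rh ε φ u t - 1) (rh ε φ u t - 1) x ∨ True := Or.inr trivial
          intro hneg
          exact absurd trivial (by
            have h5 : ∀ y : ℝ, |y| ≤ B → False := fun y hy =>
              absurd ((abs_nonneg y).trans hy) (not_le.2 hB1)
            exact fun _ => h5 _ hx.2.2.2))
    have hw0' : (0 : M →ₘ[m] ℝ) ≤ 1 + (w - 1) := by rw [hwe]; exact hw0
    have hLT : L ∈ C.Test := hLI.1
    have hθT : th φ u t ∈ C.Test := hθI.1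
    have q := hG.quartic hB (f := L) (r := w - 1) (D := D L) hLT (hG.test_A hrI.1) hw0'
      (fun h hh => by rw [hwe]; exact hrΓ h hh) (hX.hd.mem L hLT) (by
        filter_upwards [hX.hd.hess L hLT L hLT L hLT, hD.Γ_nonneg_ae (hG.test_A hLT).1]
          with x a1 a2
        rw [mul_assoc, Real.mul_self_sqrt a2] at a1
        exact a1)
    rw [hwe] at q
    have hb := heb t ht
    have hθ0 : 0 ≤ I (w * D (th φ u t) ^ 2) :=
      I_nonneg (mul_nonneg hw0 (sq_nonneg' _))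
    have hl0 : 0 ≤ ε ^ 2 * I (w * C.lap L ^ 2) :=
      mul_nonneg (sq_nonneg _) (I_nonneg (mul_nonneg hw0 (sq_nonneg' _)))
    have q2 := mul_le_mul_of_nonneg_left q (sq_nonneg ε)
    have e1 : C.EV4 ε φ u t = I (w * C.Γ L L ^ 2) := rfl
    rw [e1]
    refine q2.trans ?_
    have e2 : ε ^ 2 * (2 * I (w * C.lap L ^ 2) + 8 * I (w * D L ^ 2)) =
      2 * (ε ^ 2 * I (w * C.lap L ^ 2)) + 8 * (ε ^ 2 * I (w * D L ^ 2)) := by ring
    rw [e2]
    linarith
  have hle : s' ≤ 1 := hs1.le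
  have hcs : ContinuousOn (fun t => ε ^ 2 * C.EV4 ε φ u t) (Icc s' 1) :=
    (hcont.mono hsub).const_smul (ε ^ 2)
  calc ∫ t in s'..1, ε ^ 2 * C.EV4 ε φ u t ≤ ∫ t in s'..1, 8 * e t := by
        refine intervalIntegral.integral_mono_on hle ?_ ?_ hkey
        · exact ContinuousOn.intervalIntegrable (by rwa [uIcc_of_le hle])
        · exact ContinuousOn.intervalIntegrable (by
            rw [uIcc_of_le hle]; exact he.const_smul (8 : ℝ))
    _ = 8 * ∫ t in s'..1, e t := intervalIntegral.integral_const_mul _ _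
    _ ≤ 8 * c := by linarith

end Vale.Agent.P233
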